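import Vale.Agent.P205.Main

open scoped ContDiff InnerProductSpace Manifold

namespace Vale.Agent.Results.P205.Full

/-- smooth Riemannian metrics on the tangent bundle of a manifold `M` modelled on `E` -/
abbrev SmoothMetric (E : Type) [NormedAddCommGroup E] [NormedSpace ℝ E] (M : Type*)
    [TopologicalSpace M] [ChartedSpace E M] [IsManifold 𝓘(ℝ, E) ∞ M] :=
  Bundle.ContMDiffRiemannianMetric 𝓘(ℝ, E) ∞ E (fun p : M => TangentSpace 𝓘(ℝ, E) p)

/-- the differential of `f : M → V` at `p` applied to the tangent vector `v`, a vector of `V` -/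
noncomputable def diff (E : Type) [NormedAddCommGroup E] [NormedSpace ℝ E] {M : Type*}
    [TopologicalSpace M] [ChartedSpace E M] {V : Type} [NormedAddCommGroup V] [NormedSpace ℝ V]
    (f : M → V) (p : M) (v : TangentSpace 𝓘(ℝ, E) p) : V :=
  mfderiv 𝓘(ℝ, E) 𝓘(ℝ, V) f p v

/-- `f` is a smooth isometric immersion of `(M, g)` into the inner product space `V` -/
def IsSmoothIsometricImmersion {E : Type} [NormedAddCommGroup E] [NormedSpace ℝ E] {M : Type*}
    [TopologicalSpace M] [ChartedSpace E M] [IsManifold 𝓘(ℝ, E) ∞ M] (g : SmoothMetric E M)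
    {V : Type} [NormedAddCommGroup V] [InnerProductSpace ℝ V] (f : M → V) : Prop :=
  ContMDiff 𝓘(ℝ, E) 𝓘(ℝ, V) ∞ f ∧
    ∀ (p : M) (v w : TangentSpace 𝓘(ℝ, E) p),
      inner ℝ (diff E f p v) (diff E f p w) = g.inner p v w

theorem result (M : Type*) [TopologicalSpace M] [T2Space M] [CompactSpace M]
    [ChartedSpace (EuclideanSpace ℝ (Fin 2)) M]
    [IsManifold 𝓘(ℝ, EuclideanSpace ℝ (Fin 2)) ∞ M]
    (g : SmoothMetric (EuclideanSpace ℝ (Fin 2)) M) :
    ∃ F : M → EuclideanSpace ℝ (Fin 4), IsSmoothIsometricImmersion g F := by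
  obtain ⟨hg, hp⟩ := Vale.Agent.P205.good_metric g
  obtain ⟨F, hF, h⟩ := Vale.Agent.P205.exists_isometric hg hp
  refine ⟨F, hF, fun p v w => ?_⟩
  exact congrArg (fun k : Vale.Agent.P205.Ten M => k p v w) h

end Vale.Agent.Results.P205.Full
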